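import Crest.Agent.Lib.SnakyData.R0

set_option autoImplicit false

namespace Crest.Agent.Lib.SnakyData

open Crest.Agent.Lib.SnakyFast

noncomputable def R : NT :=
  R0

end Crest.Agent.Lib.SnakyData
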