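import Crest.Agent.Lib.SnakyData.TAll
import Crest.Agent.Lib.SnakyData.RAll

set_option autoImplicit false

namespace Crest.Agent.Lib.SnakyData

open Crest.Agent.Lib.SnakyFast

theorem c0 : rangeE T R (nat_lit 741332) (nat_lit 14) (nat_lit 0) = nat_lit 0 := by decide +kernel

theorem c1 : rangeE T R (nat_lit 741332) (nat_lit 14) (nat_lit 16384) = nat_lit 0 := by decide +kernel

theorem c2 : rangeE T R (nat_lit 741332) (nat_lit 14) (nat_lit 32768) = nat_lit 0 := by decide +kernel

theorem c3 : rangeE T R (nat_lit 741332) (nat_lit 14) (nat_lit 49152) = nat_lit 0 := by decide +kernel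

theorem c4 : rangeE T R (nat_lit 741332) (nat_lit 14) (nat_lit 65536) = nat_lit 0 := by decide +kernel

theorem c5 : rangeE T R (nat_lit 741332) (nat_lit 14) (nat_lit 81920) = nat_lit 0 := by decide +kernel

theorem c6 : rangeE T R (nat_lit 741332) (nat_lit 14) (nat_lit 98304) = nat_lit 0 := by decide +kernel

theorem c7 : rangeE T R (nat_lit 741332) (nat_lit 14) (nat_lit 114688) = nat_lit 0 := by decide +kernel

end Crest.Agent.Lib.SnakyData
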