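import Crest.Agent.Lib.SnakyData.TAll
import Crest.Agent.Lib.SnakyData.RAll

set_option autoImplicit false

namespace Crest.Agent.Lib.SnakyData

open Crest.Agent.Lib.SnakyFast

theorem c8 : rangeE T R (nat_lit 741332) (nat_lit 14) (nat_lit 131072) = nat_lit 0 := by decide +kernel

theorem c9 : rangeE T R (nat_lit 741332) (nat_lit 14) (nat_lit 147456) = nat_lit 0 := by decide +kernel

theorem c10 : rangeE T R (nat_lit 741332) (nat_lit 14) (nat_lit 163840) = nat_lit 0 := by decide +kernel

theorem c11 : rangeE T R (nat_lit 741332) (nat_lit 14) (nat_lit 180224) = nat_lit 0 := by decide +kernel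

theorem c12 : rangeE T R (nat_lit 741332) (nat_lit 14) (nat_lit 196608) = nat_lit 0 := by decide +kernel

theorem c13 : rangeE T R (nat_lit 741332) (nat_lit 14) (nat_lit 212992) = nat_lit 0 := by decide +kernel

theorem c14 : rangeE T R (nat_lit 741332) (nat_lit 14) (nat_lit 229376) = nat_lit 0 := by decide +kernel

theorem c15 : rangeE T R (nat_lit 741332) (nat_lit 14) (nat_lit 245760) = nat_lit 0 := by decide +kernel

end Crest.Agent.Lib.SnakyData
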