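import Crest.Agent.Lib.SnakyData.TAll
import Crest.Agent.Lib.SnakyData.RAll

set_option autoImplicit false

namespace Crest.Agent.Lib.SnakyData

open Crest.Agent.Lib.SnakyFast

theorem c16 : rangeE T R (nat_lit 741332) (nat_lit 14) (nat_lit 262144) = nat_lit 0 := by decide +kernel

theorem c17 : rangeE T R (nat_lit 741332) (nat_lit 14) (nat_lit 278528) = nat_lit 0 := by decide +kernel

theorem c18 : rangeE T R (nat_lit 741332) (nat_lit 14) (nat_lit 294912) = nat_lit 0 := by decide +kernel

theorem c19 : rangeE T R (nat_lit 741332) (nat_lit 14) (nat_lit 311296) = nat_lit 0 := by decide +kernel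

theorem c20 : rangeE T R (nat_lit 741332) (nat_lit 14) (nat_lit 327680) = nat_lit 0 := by decide +kernel

theorem c21 : rangeE T R (nat_lit 741332) (nat_lit 14) (nat_lit 344064) = nat_lit 0 := by decide +kernel

theorem c22 : rangeE T R (nat_lit 741332) (nat_lit 14) (nat_lit 360448) = nat_lit 0 := by decide +kernel

theorem c23 : rangeE T R (nat_lit 741332) (nat_lit 14) (nat_lit 376832) = nat_lit 0 := by decide +kernel

end Crest.Agent.Lib.SnakyData
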