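import Crest.Agent.Lib.SnakyData.TAll
import Crest.Agent.Lib.SnakyData.RAll

set_option autoImplicit false

namespace Crest.Agent.Lib.SnakyData

open Crest.Agent.Lib.SnakyFast

theorem c24 : rangeE T R (nat_lit 741332) (nat_lit 14) (nat_lit 393216) = nat_lit 0 := by decide +kernel

theorem c25 : rangeE T R (nat_lit 741332) (nat_lit 14) (nat_lit 409600) = nat_lit 0 := by decide +kernel

theorem c26 : rangeE T R (nat_lit 741332) (nat_lit 14) (nat_lit 425984) = nat_lit 0 := by decide +kernel

theorem c27 : rangeE T R (nat_lit 741332) (nat_lit 14) (nat_lit 442368) = nat_lit 0 := by decide +kernel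

theorem c28 : rangeE T R (nat_lit 741332) (nat_lit 14) (nat_lit 458752) = nat_lit 0 := by decide +kernel

theorem c29 : rangeE T R (nat_lit 741332) (nat_lit 14) (nat_lit 475136) = nat_lit 0 := by decide +kernel

theorem c30 : rangeE T R (nat_lit 741332) (nat_lit 14) (nat_lit 491520) = nat_lit 0 := by decide +kernel

theorem c31 : rangeE T R (nat_lit 741332) (nat_lit 14) (nat_lit 507904) = nat_lit 0 := by decide +kernel

end Crest.Agent.Lib.SnakyData
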