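import Crest.Agent.Lib.SnakyData.TAll
import Crest.Agent.Lib.SnakyData.RAll

set_option autoImplicit false

namespace Crest.Agent.Lib.SnakyData

open Crest.Agent.Lib.SnakyFast

theorem c32 : rangeE T R (nat_lit 741332) (nat_lit 14) (nat_lit 524288) = nat_lit 0 := by decide +kernel

theorem c33 : rangeE T R (nat_lit 741332) (nat_lit 14) (nat_lit 540672) = nat_lit 0 := by decide +kernel

theorem c34 : rangeE T R (nat_lit 741332) (nat_lit 14) (nat_lit 557056) = nat_lit 0 := by decide +kernel

theorem c35 : rangeE T R (nat_lit 741332) (nat_lit 14) (nat_lit 573440) = nat_lit 0 := by decide +kernel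

theorem c36 : rangeE T R (nat_lit 741332) (nat_lit 14) (nat_lit 589824) = nat_lit 0 := by decide +kernel

theorem c37 : rangeE T R (nat_lit 741332) (nat_lit 14) (nat_lit 606208) = nat_lit 0 := by decide +kernel

theorem c38 : rangeE T R (nat_lit 741332) (nat_lit 14) (nat_lit 622592) = nat_lit 0 := by decide +kernel

theorem c39 : rangeE T R (nat_lit 741332) (nat_lit 14) (nat_lit 638976) = nat_lit 0 := by decide +kernel

end Crest.Agent.Lib.SnakyData
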