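import Crest.Agent.Lib.SnakyData.TAll
import Crest.Agent.Lib.SnakyData.RAll

set_option autoImplicit false

namespace Crest.Agent.Lib.SnakyData

open Crest.Agent.Lib.SnakyFast

theorem c40 : rangeE T R (nat_lit 741332) (nat_lit 14) (nat_lit 655360) = nat_lit 0 := by decide +kernel

theorem c41 : rangeE T R (nat_lit 741332) (nat_lit 14) (nat_lit 671744) = nat_lit 0 := by decide +kernel

theorem c42 : rangeE T R (nat_lit 741332) (nat_lit 14) (nat_lit 688128) = nat_lit 0 := by decide +kernel

theorem c43 : rangeE T R (nat_lit 741332) (nat_lit 14) (nat_lit 704512) = nat_lit 0 := by decide +kernel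

theorem c44 : rangeE T R (nat_lit 741332) (nat_lit 14) (nat_lit 720896) = nat_lit 0 := by decide +kernel

theorem c45 : rangeE T R (nat_lit 741332) (nat_lit 14) (nat_lit 737280) = nat_lit 0 := by decide +kernel

theorem c46 : rangeE T R (nat_lit 741332) (nat_lit 14) (nat_lit 753664) = nat_lit 0 := by decide +kernel

theorem c47 : rangeE T R (nat_lit 741332) (nat_lit 14) (nat_lit 770048) = nat_lit 0 := by decide +kernel

end Crest.Agent.Lib.SnakyData
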