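import Crest.Agent.Lib.SnakyData.TAll
import Crest.Agent.Lib.SnakyData.RAll

set_option autoImplicit false

namespace Crest.Agent.Lib.SnakyData

open Crest.Agent.Lib.SnakyFast

theorem c48 : rangeE T R (nat_lit 741332) (nat_lit 14) (nat_lit 786432) = nat_lit 0 := by decide +kernel

theorem c49 : rangeE T R (nat_lit 741332) (nat_lit 14) (nat_lit 802816) = nat_lit 0 := by decide +kernel

theorem c50 : rangeE T R (nat_lit 741332) (nat_lit 14) (nat_lit 819200) = nat_lit 0 := by decide +kernel

theorem c51 : rangeE T R (nat_lit 741332) (nat_lit 14) (nat_lit 835584) = nat_lit 0 := by decide +kernel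

theorem c52 : rangeE T R (nat_lit 741332) (nat_lit 14) (nat_lit 851968) = nat_lit 0 := by decide +kernel

theorem c53 : rangeE T R (nat_lit 741332) (nat_lit 14) (nat_lit 868352) = nat_lit 0 := by decide +kernel

theorem c54 : rangeE T R (nat_lit 741332) (nat_lit 14) (nat_lit 884736) = nat_lit 0 := by decide +kernel

theorem c55 : rangeE T R (nat_lit 741332) (nat_lit 14) (nat_lit 901120) = nat_lit 0 := by decide +kernel

end Crest.Agent.Lib.SnakyData
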