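import Crest.Agent.Lib.SnakyData.TAll
import Crest.Agent.Lib.SnakyData.RAll

set_option autoImplicit false

namespace Crest.Agent.Lib.SnakyData

open Crest.Agent.Lib.SnakyFast

theorem c56 : rangeE T R (nat_lit 741332) (nat_lit 14) (nat_lit 917504) = nat_lit 0 := by decide +kernel

theorem c57 : rangeE T R (nat_lit 741332) (nat_lit 14) (nat_lit 933888) = nat_lit 0 := by decide +kernel

theorem c58 : rangeE T R (nat_lit 741332) (nat_lit 14) (nat_lit 950272) = nat_lit 0 := by decide +kernel

theorem c59 : rangeE T R (nat_lit 741332) (nat_lit 14) (nat_lit 966656) = nat_lit 0 := by decide +kernel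

theorem c60 : rangeE T R (nat_lit 741332) (nat_lit 14) (nat_lit 983040) = nat_lit 0 := by decide +kernel

theorem c61 : rangeE T R (nat_lit 741332) (nat_lit 14) (nat_lit 999424) = nat_lit 0 := by decide +kernel

theorem c62 : rangeE T R (nat_lit 741332) (nat_lit 14) (nat_lit 1015808) = nat_lit 0 := by decide +kernel

theorem c63 : rangeE T R (nat_lit 741332) (nat_lit 14) (nat_lit 1032192) = nat_lit 0 := by decide +kernel

end Crest.Agent.Lib.SnakyData
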