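import Crest.Agent.Lib.SnakyData.T0
import Crest.Agent.Lib.SnakyData.T1
import Crest.Agent.Lib.SnakyData.T2
import Crest.Agent.Lib.SnakyData.T3
import Crest.Agent.Lib.SnakyData.T4
import Crest.Agent.Lib.SnakyData.T5
import Crest.Agent.Lib.SnakyData.T6
import Crest.Agent.Lib.SnakyData.T7

set_option autoImplicit false

namespace Crest.Agent.Lib.SnakyData

open Crest.Agent.Lib.SnakyFast

noncomputable def T : NT :=
  NT.node (NT.node (NT.node (T0) (T4)) (NT.node (T2) (T6))) (NT.node (NT.node (T1) (T5)) (NT.node (T3) (T7)))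

end Crest.Agent.Lib.SnakyData
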